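import Vale.Agent.P207.N5.H58.Pic
import Vale.Agent.P207.H790.N4.AqSeq

/-!
# P207, line N5, row T2a: variation of the affine charts

`P.Aq x ξ` (the affine chart of the leaf `ξ`, read in the affine coordinate of the leaf `em x`) is
affine up to `O(t ^ κ)` in all `C^k`, `t = ‖P.gr x ξ 0‖`, `(κ + 1) b < 2 a`. Inputs: uniform `C^k`
bounds (`AqB`), the crossings (`KqB`, `HqB`), the backward rate of the angle (`AngB`).
-/

set_option linter.all false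
set_option maxSynthPendingDepth 3

open Set Filter Topology Metric MeasureTheory
open scoped ContDiff

noncomputable section

namespace Vale.Agent.P207.N4.V.H790

open Vale.Agent.P207.N4.H790

open Vale.Agent.P207.N3

variable [Dim]

variable {Γ X B : Type} [Group Γ] [MetricSpace X] [ProperSpace X] [MulAction Γ X]
  [IsIsometricSMul Γ X] [TopologicalSpace B] [CompactSpace B] [T2Space B] [MulAction Γ B]
  [ContinuousConstSMul Γ B] {L : Leaf Γ X B} [MeasurableSpace B] [BorelSpace B] {V : Type}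
  [NormedAddCommGroup V] [NormedSpace ℝ V] [FiniteDimensional ℝ V] (P : Pic L V)

/-- uniform `C^k` bounds of the charts -/
def AqB (ε₀ : ℝ) : Prop := ∀ k : ℕ, ∃ C, ∀ x ξ, P.Nr ε₀ x ξ →
  ContDiffOn ℝ ∞ (P.Aq x ξ) (ball 0 1) ∧
    ∀ q ∈ ball (0 : E2) 1, ‖iteratedFDeriv ℝ k (P.Aq x ξ) q‖ ≤ C

/-- the crossings, seen from the disc -/
def KqB (ε₀ : ℝ) : Prop := ∃ C, ∀ x ξ, P.Nr ε₀ x ξ → ∀ w ∈ ball (0 : E2) 1,
  P.Th x ξ w ≠ L.em x ∧ ‖P.Af.ch x (P.Th x ξ w) - w‖ ≤ C * ‖P.gr x ξ 0‖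

/-- the crossings, seen from the leaf -/
def HqB (ε₀ : ℝ) : Prop := ∃ C, ∀ x ξ, P.Nr ε₀ x ξ → ∀ q ∈ ball (0 : E2) 1,
  P.Th x ξ (P.Hq x ξ q) = P.Af.pt x q ∧ ‖P.Hq x ξ q - q‖ ≤ C * ‖P.gr x ξ 0‖

/-- backward rate of the angle -/
def AngB (ε₀ : ℝ) : Prop := ∃ C, 1 ≤ C ∧ ∀ x ξ s, 0 ≤ s → P.Nr ε₀ x ξ →
  C * Real.exp (P.Ra.b * s) * ‖P.gr x ξ 0‖ ≤ ε₀ →
  P.Nr ε₀ (L.φ (-s) x) ξ ∧ ‖P.gr (L.φ (-s) x) ξ 0‖ ≤ C * Real.exp (P.Ra.b * s) * ‖P.gr x ξ 0‖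

variable {P}

theorem dsc_mem (x : X) {q : E2} (hq : q ∈ closedBall (0 : E2) 2) :
    P.dsc x q ∈ ball (0 : E2) 1 ∧ L.e x (P.dsc x q) = P.Af.pt x q := by
  obtain ⟨u, hu, he⟩ := P.Af.unit x q hq
  have hu3 : u ∈ closedBall (0 : E2) 3 := by
    rw [mem_ball] at hu
    rw [mem_closedBall]
    linarith
  have hex : ∃ v ∈ closedBall (0 : E2) 3, L.e x v = P.Af.pt x q := ⟨u, hu3, he⟩
  have h1 : L.e x (P.dsc x q) = P.Af.pt x q := Function.invFunOn_eq hex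
  have h2 : P.dsc x q ∈ closedBall (0 : E2) 3 := Function.invFunOn_mem hex
  have h3 : P.dsc x q = u := L.e_inj x h2 hu3 (h1.trans he.symm)
  exact ⟨h3 ▸ hu, h1⟩

theorem dsc_mem3 (x : X) {q : E2} (hq : q ∈ closedBall (0 : E2) 2) :
    P.dsc x q ∈ ball (0 : E2) 3 := by
  have := (dsc_mem (P := P) x hq).1
  rw [mem_ball] at this ⊢
  linarith

theorem Th_ne (x : X) (ξ : B) {q : E2} (hq : q ∈ closedBall (0 : E2) 2) : P.Th x ξ q ≠ ξ := by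
  obtain ⟨z, hz1, hz2, -⟩ := P.Bu.exists_fr x ξ (P.dsc x q) (dsc_mem3 x hq)
  intro h
  have h' : P.Bu.en x ξ (P.dsc x q) = ξ := h
  exact L.em_ne_ep z (by rw [hz1, hz2, h'])

theorem ne_ep {ε : ℝ} {x : X} {ξ : B} (h : P.Nr ε x ξ) : ξ ≠ L.ep x := by
  rintro rfl
  have h0 : (0 : E2) ∈ ball (0 : E2) 3 := mem_ball_self (by norm_num)
  have h1 : P.Bu.en x (L.em x) 0 = L.ep x := by rw [P.Bu.en_em x 0 h0, L.e_zero]
  have h2 := P.Bu.nu_en x (L.em x) 0 h0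
  rw [h1] at h2
  have h3 := P.Bu.nu_em x
  have h4 := h.1
  linarith

theorem ch_flow (t : ℝ) (x : X) {η : B} (hη : η ≠ L.em x) :
    P.Af.ch (L.φ t x) η = P.Af.P t x (P.Af.ch x η) := by
  have h := P.Af.flow t x (P.Af.ch x η)
  rw [P.Af.pt_ch x η hη] at h
  rw [← P.Af.ch_pt (L.φ t x) (P.Af.P t x (P.Af.ch x η)), h]

theorem norm_symm_le (hR : P.RateP) {τ : ℝ} (hτ : 0 ≤ τ) (x : X) (q : E2) :
    ‖(P.Af.P τ x).symm q‖ ≤ Real.exp (-(P.Ra.a * τ)) * ‖q‖ := by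
  have h := (hR τ hτ x ((P.Af.P τ x).symm q)).1
  rw [ContinuousLinearEquiv.apply_symm_apply] at h
  have h2 : 0 < Real.exp (P.Ra.a * τ) := Real.exp_pos _
  rw [Real.exp_neg, ← div_eq_inv_mul, le_div_iff₀ h2, mul_comm]
  exact h

/-- one step -/
theorem step_le (hR : P.RateP) {τ C₁ CK CH ε₁ : ℝ} (hτ : 0 ≤ τ) {y : X} {ξ : B}
    (hne : ξ ≠ L.ep y)
    (hA : ContDiffOn ℝ ∞ (P.Aq y ξ) (ball 0 1))
    (hA1 : ∀ q ∈ ball (0 : E2) 1, ‖iteratedFDeriv ℝ 1 (P.Aq y ξ) q‖ ≤ C₁)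
    {tx ty : ℝ} (hK : ∀ w ∈ ball (0 : E2) 1, P.Th (L.φ τ y) ξ w ≠ L.em (L.φ τ y) ∧
      ‖P.Af.ch (L.φ τ y) (P.Th (L.φ τ y) ξ w) - w‖ ≤ CK * tx)
    (hH : ∀ q ∈ ball (0 : E2) 1, P.Th y ξ (P.Hq y ξ q) = P.Af.pt y q ∧
      ‖P.Hq y ξ q - q‖ ≤ CH * ty)
    (hs1 : Real.exp (-(P.Ra.a * τ)) * (1 + CK * tx) ≤ 1 / 2) (hs2 : CH * ty < 1 / 2)
    {w : E2} (hw : w ∈ ball (0 : E2) 1) :
    ‖P.Aq (L.φ τ y) ξ w - P.Af.P τ (L.hol ξ y) (P.Aq y ξ ((P.Af.P τ y).symm w))‖ ≤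
      Real.exp (P.Ra.b * τ) * (C₁ * (CK * tx + CH * ty)) := by
  have hb2 : ∀ {q : E2}, q ∈ ball (0 : E2) 1 → q ∈ closedBall (0 : E2) 2 := by
    intro q hq
    rw [mem_ball] at hq
    rw [mem_closedBall]
    linarith
  have hemz : L.em (L.hol ξ y) = ξ := L.hol_em ξ y hne
  have hφ : L.hol ξ (L.φ τ y) = L.φ τ (L.hol ξ y) := L.hol_φ τ ξ y hne
  set z := L.hol ξ y with hz
  set η := P.Th (L.φ τ y) ξ w with hη
  obtain ⟨hη1, hw0⟩ := hK w hw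
  have hη1' : η ≠ L.em y := by
    rw [L.em_φ] at hη1; exact hη1
  have hη2 : η ≠ ξ := Th_ne _ _ (hb2 hw)
  set w0 := P.Af.ch (L.φ τ y) η with hw0d
  set q0 := (P.Af.P τ y).symm w0 with hq0d
  have hq0 : P.Af.pt y q0 = η := by
    have h := P.Af.flow τ y q0
    rw [hq0d, ContinuousLinearEquiv.apply_symm_apply, hw0d, P.Af.pt_ch _ _ hη1] at h
    exact h.symm
  have hw1 : ‖w‖ < 1 := by simpa using hw
  have nw0 : ‖w0‖ ≤ 1 + CK * tx := by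
    calc ‖w0‖ = ‖(w0 - w) + w‖ := by congr 1; abel
      _ ≤ ‖w0 - w‖ + ‖w‖ := norm_add_le _ _
      _ ≤ CK * tx + 1 := add_le_add hw0 hw1.le
      _ = _ := add_comm _ _
  have nq0 : ‖q0‖ ≤ 1 / 2 := by
    refine (norm_symm_le hR hτ y w0).trans (le_trans ?_ hs1)
    exact mul_le_mul_of_nonneg_left nw0 (Real.exp_pos _).le
  have hq0b : q0 ∈ ball (0 : E2) 1 := by
    rw [mem_ball_zero_iff]; linarith
  obtain ⟨hu1, hu2⟩ := hH q0 hq0b
  set u := P.Hq y ξ q0 with hud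
  rw [hq0] at hu1
  have hub : u ∈ ball (0 : E2) 1 := by
    rw [mem_ball_zero_iff]
    calc ‖u‖ = ‖(u - q0) + q0‖ := by congr 1; abel
      _ ≤ ‖u - q0‖ + ‖q0‖ := norm_add_le _ _
      _ < 1 / 2 + 1 / 2 := add_lt_add_of_lt_of_le (hu2.trans_lt hs2) nq0
      _ = 1 := by norm_num
  set w' := (P.Af.P τ y).symm w with hw'd
  have hw'b : w' ∈ ball (0 : E2) 1 := by
    rw [mem_ball_zero_iff]
    have h1 := norm_symm_le hR hτ y w
    have hx : 0 ≤ CK * tx := (norm_nonneg _).trans hw0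
    have h2 : Real.exp (-(P.Ra.a * τ)) * ‖w‖ ≤ Real.exp (-(P.Ra.a * τ)) * (1 + CK * tx) :=
      mul_le_mul_of_nonneg_left (by linarith) (Real.exp_pos _).le
    linarith
  have hAu : P.Aq y ξ u = P.Af.ch z η := by
    show P.Af.ch (L.hol ξ y) (P.Th y ξ u) = P.Af.ch z η
    rw [hu1]
  have hAx : P.Aq (L.φ τ y) ξ w = P.Af.P τ z (P.Af.ch z η) := by
    show P.Af.ch (L.hol ξ (L.φ τ y)) η = _
    rw [hφ]
    exact ch_flow τ z (by rw [hemz]; exact hη2)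
  have hdiff : ∀ q ∈ ball (0 : E2) 1, DifferentiableAt ℝ (P.Aq y ξ) q := fun q hq =>
    (hA.contDiffAt (isOpen_ball.mem_nhds hq)).differentiableAt (by simp)
  have hLip : ‖P.Aq y ξ u - P.Aq y ξ w'‖ ≤ C₁ * ‖u - w'‖ :=
    (convex_ball (0 : E2) 1).norm_image_sub_le_of_norm_fderiv_le hdiff
      (fun q hq => by rw [← norm_iteratedFDeriv_one]; exact hA1 q hq) hw'b hub
  have hC₁ : 0 ≤ C₁ := (norm_nonneg _).trans (hA1 w hw)
  have huw : ‖u - w'‖ ≤ CK * tx + CH * ty := by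
    have h1 : ‖q0 - w'‖ ≤ ‖w0 - w‖ := by
      have h2 : q0 - w' = (P.Af.P τ y).symm (w0 - w) := by rw [map_sub]
      rw [h2]
      refine (norm_symm_le hR hτ y _).trans ?_
      refine mul_le_of_le_one_left (norm_nonneg _) (Real.exp_le_one_iff.2 ?_)
      have := mul_nonneg P.Ra.a_pos.le hτ
      linarith
    calc ‖u - w'‖ = ‖(u - q0) + (q0 - w')‖ := by congr 1; abel
      _ ≤ ‖u - q0‖ + ‖q0 - w'‖ := norm_add_le _ _
      _ ≤ CH * ty + CK * tx := add_le_add hu2 (h1.trans hw0)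
      _ = _ := add_comm _ _
  rw [hAx, ← hAu, ← map_sub]
  calc ‖P.Af.P τ z (P.Aq y ξ u - P.Aq y ξ w')‖
      ≤ Real.exp (P.Ra.b * τ) * ‖P.Aq y ξ u - P.Aq y ξ w'‖ := (hR τ hτ z _).2
    _ ≤ Real.exp (P.Ra.b * τ) * (C₁ * (CK * tx + CH * ty)) := by
        refine mul_le_mul_of_nonneg_left (hLip.trans ?_) (Real.exp_pos _).le
        exact mul_le_mul_of_nonneg_left huw hC₁

theorem t2a_ge {ε₀ : ℝ} (h0 : 0 < ε₀) (hR : P.RateP) (hA : AqB P ε₀) (hK : KqB P ε₀)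
    (hH : HqB P ε₀) (hG : AngB P ε₀) {s : ℝ} (hs0 : 0 ≤ s)
    (hs : (s + 1) * P.Ra.b < 2 * P.Ra.a) {k : ℕ} (hk : 2 ≤ k) :
    ∃ K, 0 ≤ K ∧ ∀ x ξ t, P.Nr ε₀ x ξ → ‖P.gr x ξ 0‖ ≤ t → 0 < t → t ≤ 1 →
      ∀ w ∈ ball (0 : E2) 1, ‖iteratedFDeriv ℝ k (P.Aq x ξ) w‖ ≤ K * t ^ s := by
  choose C₁ hC₁ using hA
  obtain ⟨CK', hCK'⟩ := hK
  obtain ⟨CH', hCH'⟩ := hH
  obtain ⟨CG, hCG1, hCG⟩ := hG
  set CK : ℝ := |CK'| with hCKd
  set CH : ℝ := |CH'| with hCHd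
  have hCK0 : 0 ≤ CK := abs_nonneg _
  have hCH0 : 0 ≤ CH := abs_nonneg _
  have hCK : ∀ x ξ, P.Nr ε₀ x ξ → ∀ w ∈ ball (0 : E2) 1,
      P.Th x ξ w ≠ L.em x ∧ ‖P.Af.ch x (P.Th x ξ w) - w‖ ≤ CK * ‖P.gr x ξ 0‖ :=
    fun x ξ h w hw => ⟨(hCK' x ξ h w hw).1, (hCK' x ξ h w hw).2.trans
      (mul_le_mul_of_nonneg_right (le_abs_self _) (norm_nonneg _))⟩
  have hCH : ∀ x ξ, P.Nr ε₀ x ξ → ∀ q ∈ ball (0 : E2) 1,
      P.Th x ξ (P.Hq x ξ q) = P.Af.pt x q ∧ ‖P.Hq x ξ q - q‖ ≤ CH * ‖P.gr x ξ 0‖ :=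
    fun x ξ h q hq => ⟨(hCH' x ξ h q hq).1, (hCH' x ξ h q hq).2.trans
      (mul_le_mul_of_nonneg_right (le_abs_self _) (norm_nonneg _))⟩
  have ha := P.Ra.a_pos
  have hab := P.Ra.a_le_b
  have hb : 0 < P.Ra.b := ha.trans_le hab
  have hs1 : s < 1 := by
    by_contra h
    push Not at h
    nlinarith
  -- the time step
  obtain ⟨τ, hτ0, hτ1⟩ : ∃ τ, 0 < τ ∧ Real.exp (-(P.Ra.a * τ)) * (1 + CK * ε₀) ≤ 1 / 2 := by
    have hpos : 0 < 1 + CK * ε₀ := by positivity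
    have h1 : (1 : ℝ) < 2 * (1 + CK * ε₀) := by nlinarith [mul_nonneg hCK0 h0.le]
    refine ⟨Real.log (2 * (1 + CK * ε₀)) / P.Ra.a, div_pos (Real.log_pos h1) ha, ?_⟩
    rw [mul_div_cancel₀ _ ha.ne', Real.exp_neg, Real.exp_log (by positivity)]
    rw [mul_inv]
    have : (2 : ℝ)⁻¹ * (1 + CK * ε₀)⁻¹ * (1 + CK * ε₀) = 2⁻¹ := by field_simp
    rw [this]; norm_num
  set ε₁ : ℝ := min ε₀ (1 / (2 * (CH + 1))) with hε₁
  have hε₁0 : 0 < ε₁ := lt_min h0 (by positivity)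
  have hε₁H : ∀ ty, ty ≤ ε₁ → CH * ty < 1 / 2 := by
    intro ty hty
    have h1 : ty ≤ 1 / (2 * (CH + 1)) := hty.trans (min_le_right _ _)
    calc CH * ty ≤ CH * (1 / (2 * (CH + 1))) := mul_le_mul_of_nonneg_left h1 hCH0
      _ < (CH + 1) * (1 / (2 * (CH + 1))) := by
          apply mul_lt_mul_of_pos_right (by linarith); positivity
      _ = 1 / 2 := by field_simp
  have hCG0 : 0 < CG := by linarith
  set r : ℝ := ε₁ / CG with hr
  have hr0 : 0 < r := div_pos hε₁0 hCG0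
  have hbτ : 0 < P.Ra.b * τ := mul_pos hb hτ0
  have haτ : 0 < P.Ra.a * τ := mul_pos ha hτ0
  set C₂ : ℝ := Real.exp (P.Ra.b * τ) / r + Real.exp (P.Ra.b * τ) * (|C₁ 1| * (CK * CG + CH * CG))
    with hC₂
  obtain ⟨K, hK0, HK⟩ := Vale.Agent.P207.H790.T2.aq_seq (E := E2) (a := P.Ra.a * τ)
    (b := P.Ra.b * τ) (s := s) k hk haτ.le hs0 hs1 (by nlinarith) C₁ C₂
  refine ⟨max K (|C₁ k| * (r ^ s)⁻¹), le_max_of_le_left hK0, ?_⟩
  intro x ξ t hN hgt ht ht1 w hw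
  have hts : 0 < t ^ s := Real.rpow_pos_of_pos ht _
  rcases lt_or_ge r t with hrt | hrt
  · -- trivial case
    have h1 : ‖iteratedFDeriv ℝ k (P.Aq x ξ) w‖ ≤ |C₁ k| :=
      ((hC₁ k x ξ hN).2 w hw).trans (le_abs_self _)
    have h2 : r ^ s ≤ t ^ s := Real.rpow_le_rpow hr0.le hrt.le hs0
    have h3 : 0 < r ^ s := Real.rpow_pos_of_pos hr0 _
    calc ‖iteratedFDeriv ℝ k (P.Aq x ξ) w‖ ≤ |C₁ k| := h1
      _ = |C₁ k| * (r ^ s)⁻¹ * r ^ s := by field_simp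
      _ ≤ |C₁ k| * (r ^ s)⁻¹ * t ^ s := mul_le_mul_of_nonneg_left h2 (by positivity)
      _ ≤ _ := mul_le_mul_of_nonneg_right (le_max_right _ _) hts.le
  · -- number of steps
    set n : ℕ := ⌊Real.log (r / t) / (P.Ra.b * τ)⌋₊ with hn
    have hrt1 : 1 ≤ r / t := (one_le_div ht).2 hrt
    have hlog : 0 ≤ Real.log (r / t) := Real.log_nonneg hrt1
    have hn1 : (n : ℝ) * (P.Ra.b * τ) ≤ Real.log (r / t) := by
      have := Nat.floor_le (div_nonneg hlog hbτ.le)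
      rwa [← hn, le_div_iff₀ hbτ] at this
    have hn2 : Real.log (r / t) < (n + 1) * (P.Ra.b * τ) := by
      have := Nat.lt_floor_add_one (Real.log (r / t) / (P.Ra.b * τ))
      rwa [← hn, div_lt_iff₀ hbτ] at this
    have hexpn : Real.exp (P.Ra.b * τ * n) * t ≤ r := by
      have h1 : Real.exp (P.Ra.b * τ * n) ≤ r / t := by
        rw [← Real.exp_log (div_pos hr0 ht)]
        exact Real.exp_le_exp.2 (by linarith)
      calc Real.exp (P.Ra.b * τ * n) * t ≤ r / t * t := mul_le_mul_of_nonneg_right h1 ht.le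
        _ = r := div_mul_cancel₀ _ ht.ne'
    have hexpn2 : Real.exp (-(P.Ra.b * τ * n)) ≤ C₂ * t := by
      have h1 : r / t ≤ Real.exp (P.Ra.b * τ) * Real.exp (P.Ra.b * τ * n) := by
        rw [← Real.exp_add, ← Real.exp_log (div_pos hr0 ht)]
        exact Real.exp_le_exp.2 (by nlinarith [hn2])
      have h2 : r ≤ Real.exp (P.Ra.b * τ) * Real.exp (P.Ra.b * τ * n) * t := by
        rwa [div_le_iff₀ ht] at h1
      have h3 : Real.exp (-(P.Ra.b * τ * n)) ≤ Real.exp (P.Ra.b * τ) / r * t := by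
        rw [Real.exp_neg, div_mul_eq_mul_div, le_div_iff₀ hr0, inv_mul_le_iff₀ (Real.exp_pos _)]
        calc r ≤ Real.exp (P.Ra.b * τ) * Real.exp (P.Ra.b * τ * n) * t := h2
          _ = _ := by ring
      refine h3.trans (mul_le_mul_of_nonneg_right ?_ ht.le)
      rw [hC₂]
      have : 0 ≤ Real.exp (P.Ra.b * τ) * (|C₁ 1| * (CK * CG + CH * CG)) := by positivity
      linarith
    -- the orbit
    set xs : ℕ → X := fun i => L.φ (-(τ * i)) x with hxs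
    have hx0 : xs 0 = x := by
      show L.φ (-(τ * (0 : ℕ))) x = x
      rw [Nat.cast_zero, mul_zero, neg_zero, L.φ_zero]
    have hstep : ∀ i, L.φ τ (xs (i + 1)) = xs i := by
      intro i
      show L.φ τ (L.φ (-(τ * ((i + 1 : ℕ) : ℝ))) x) = L.φ (-(τ * i)) x
      rw [← L.φ_add]
      congr 1
      push_cast
      ring
    have hle : ∀ i ≤ n, CG * Real.exp (P.Ra.b * (τ * i)) * ‖P.gr x ξ 0‖ ≤ ε₁ := by
      intro i hi
      have h1 : Real.exp (P.Ra.b * (τ * i)) ≤ Real.exp (P.Ra.b * τ * n) := by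
        apply Real.exp_le_exp.2
        have : (i : ℝ) ≤ n := by exact_mod_cast hi
        nlinarith
      calc CG * Real.exp (P.Ra.b * (τ * i)) * ‖P.gr x ξ 0‖
          ≤ CG * Real.exp (P.Ra.b * τ * n) * t := by gcongr
        _ = CG * (Real.exp (P.Ra.b * τ * n) * t) := by ring
        _ ≤ CG * r := mul_le_mul_of_nonneg_left hexpn hCG0.le
        _ = ε₁ := by rw [hr]; field_simp
    have hNi : ∀ i ≤ n, P.Nr ε₀ (xs i) ξ ∧
        ‖P.gr (xs i) ξ 0‖ ≤ CG * Real.exp (P.Ra.b * (τ * i)) * ‖P.gr x ξ 0‖ := by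
      intro i hi
      exact hCG x ξ (τ * i) (by positivity) hN ((hle i hi).trans (min_le_left _ _))
    have hgi : ∀ i ≤ n, ‖P.gr (xs i) ξ 0‖ ≤ ε₁ := fun i hi => (hNi i hi).2.trans (hle i hi)
    have hgi2 : ∀ i ≤ n, ‖P.gr (xs i) ξ 0‖ ≤ CG * (Real.exp (P.Ra.b * τ * i) * t) := by
      intro i hi
      refine (hNi i hi).2.trans ?_
      have : P.Ra.b * (τ * i) = P.Ra.b * τ * i := by ring
      rw [this, mul_assoc]
      gcongr
    have hmain := HK n t (fun i => P.Aq (xs i) ξ) (fun i => P.Af.P τ (xs (i + 1)))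
      (fun i => P.Af.P τ (L.hol ξ (xs (i + 1)))) ht hexpn2 ?_ ?_ ?_ ?_ ?_ w hw
    · have hA0 : P.Aq (xs 0) ξ = P.Aq x ξ := by rw [hx0]
      simp only [hA0] at hmain
      exact hmain.trans (mul_le_mul_of_nonneg_right (le_max_left _ _) hts.le)
    · intro i hi
      refine ContinuousLinearMap.opNorm_le_bound _ (Real.exp_pos _).le fun q => ?_
      exact norm_symm_le hR hτ0.le _ q
    · intro i hi
      refine ContinuousLinearMap.opNorm_le_bound _ (Real.exp_pos _).le fun q => ?_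
      exact (hR τ hτ0.le _ q).2
    · exact fun i hi => (hC₁ 0 (xs i) ξ (hNi i hi).1).1
    · exact fun i hi j q hq => (hC₁ j (xs i) ξ (hNi i hi).1).2 q hq
    · intro i hi q hq
      have hi1 : i + 1 ≤ n := hi
      have hNx := (hNi i hi.le).1
      have hNy := (hNi (i + 1) hi1).1
      have hxi : L.φ τ (xs (i + 1)) = xs i := hstep i
      have key := step_le (P := P) hR (τ := τ) (C₁ := |C₁ 1|) (CK := CK) (CH := CH) (ε₁ := ε₁)
        hτ0.le (y := xs (i + 1)) (ξ := ξ) (ne_ep hNy) (hC₁ 0 _ ξ hNy).1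
        (fun q hq => ((hC₁ 1 _ ξ hNy).2 q hq).trans (le_abs_self _))
        (tx := ‖P.gr (xs i) ξ 0‖) (ty := ‖P.gr (xs (i + 1)) ξ 0‖)
        (by rw [hxi]; exact fun w hw => hCK (xs i) ξ hNx w hw)
        (fun q hq => hCH (xs (i + 1)) ξ hNy q hq)
        (by
          refine le_trans (mul_le_mul_of_nonneg_left ?_ (Real.exp_pos _).le) hτ1
          have : CK * ‖P.gr (xs i) ξ 0‖ ≤ CK * ε₀ :=
            mul_le_mul_of_nonneg_left ((hgi i hi.le).trans (min_le_left _ _)) hCK0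
          linarith)
        (hε₁H _ (hgi (i + 1) hi1)) hq
      rw [hxi] at key
      refine key.trans ?_
      have g1 : ‖P.gr (xs i) ξ 0‖ ≤ CG * (Real.exp (P.Ra.b * τ * (i + 1)) * t) := by
        refine (hgi2 i hi.le).trans ?_
        have : P.Ra.b * τ * i ≤ P.Ra.b * τ * (i + 1) := by nlinarith
        gcongr
      have g2 : ‖P.gr (xs (i + 1)) ξ 0‖ ≤ CG * (Real.exp (P.Ra.b * τ * (i + 1)) * t) := by
        have := hgi2 (i + 1) hi1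
        push_cast at this
        exact this
      calc Real.exp (P.Ra.b * τ) * (|C₁ 1| * (CK * ‖P.gr (xs i) ξ 0‖ + CH * ‖P.gr (xs (i + 1)) ξ 0‖))
          ≤ Real.exp (P.Ra.b * τ) * (|C₁ 1| * (CK * (CG * (Real.exp (P.Ra.b * τ * (i + 1)) * t)) +
              CH * (CG * (Real.exp (P.Ra.b * τ * (i + 1)) * t)))) := by gcongr
        _ = Real.exp (P.Ra.b * τ) * (|C₁ 1| * (CK * CG + CH * CG)) *
              (Real.exp (P.Ra.b * τ * (i + 1)) * t) := by ring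
        _ ≤ C₂ * (Real.exp (P.Ra.b * τ * (i + 1)) * t) := by
            refine mul_le_mul_of_nonneg_right ?_ (by positivity)
            rw [hC₂]
            have : 0 ≤ Real.exp (P.Ra.b * τ) / r := by positivity
            linarith

/-- **T2a, second and higher derivatives** -/
theorem t2a_two {ε₀ : ℝ} (h0 : 0 < ε₀) (h1 : ε₀ ≤ 1) (hpin : P.Ra.b < 2 * P.Ra.a) (hR : P.RateP)
    (hA : AqB P ε₀) (hK : KqB P ε₀)
    (hH : HqB P ε₀) (hG : AngB P ε₀) (κ : ℝ) (hκ : (κ + 1) * P.Ra.b < 2 * P.Ra.a)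
    (k : ℕ) (hk : 2 ≤ k) :
    ∃ C, 0 ≤ C ∧ ∀ x ξ, P.Nr ε₀ x ξ → ∀ w ∈ ball (0 : E2) 1,
      ‖iteratedFDeriv ℝ k (P.Aq x ξ) w‖ ≤ C * ‖P.gr x ξ 0‖ ^ κ := by
  have ha := P.Ra.a_pos
  have hb : 0 < P.Ra.b := ha.trans_le P.Ra.a_le_b
  set s₀ : ℝ := (2 * P.Ra.a / P.Ra.b - 1) / 2 with hs₀
  have h2 : 1 < 2 * P.Ra.a / P.Ra.b := (one_lt_div hb).2 hpin
  have hs₀0 : 0 < s₀ := by rw [hs₀]; linarith
  have hs₀1 : (s₀ + 1) * P.Ra.b < 2 * P.Ra.a := by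
    have h3 : s₀ + 1 < 2 * P.Ra.a / P.Ra.b := by rw [hs₀]; linarith
    rwa [lt_div_iff₀ hb] at h3
  set s : ℝ := max κ s₀ with hs
  have hsp : 0 < s := lt_of_lt_of_le hs₀0 (le_max_right _ _)
  have hsb : (s + 1) * P.Ra.b < 2 * P.Ra.a := by
    rcases max_cases κ s₀ with ⟨h, _⟩ | ⟨h, _⟩
    · rw [hs, h]; exact hκ
    · rw [hs, h]; exact hs₀1
  obtain ⟨K, hK0, HK⟩ := t2a_ge h0 hR hA hK hH hG hsp.le hsb hk
  refine ⟨K, hK0, fun x ξ hN w hw => ?_⟩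
  rcases (norm_nonneg (P.gr x ξ 0)).eq_or_lt with hg | hg
  · -- the leaf itself
    have h4 : ∀ t : ℝ, 0 < t → t ≤ 1 → ‖iteratedFDeriv ℝ k (P.Aq x ξ) w‖ ≤ K * t ^ s :=
      fun t ht ht1 => HK x ξ t hN (by rw [← hg]; exact ht.le) ht ht1 w hw
    have h5 : ‖iteratedFDeriv ℝ k (P.Aq x ξ) w‖ ≤ 0 := by
      by_contra hc
      push Not at hc
      set d := ‖iteratedFDeriv ℝ k (P.Aq x ξ) w‖ with hd
      set t : ℝ := min 1 ((d / (K + 1)) ^ (s⁻¹)) with ht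
      have hq : 0 < d / (K + 1) := by positivity
      have ht0 : 0 < t := lt_min one_pos (Real.rpow_pos_of_pos hq _)
      have h6 := h4 t ht0 (min_le_left _ _)
      have h7 : t ^ s ≤ d / (K + 1) := by
        calc t ^ s ≤ ((d / (K + 1)) ^ (s⁻¹)) ^ s :=
              Real.rpow_le_rpow ht0.le (min_le_right _ _) hsp.le
          _ = d / (K + 1) := by
              rw [← Real.rpow_mul hq.le, inv_mul_cancel₀ hsp.ne', Real.rpow_one]
      have h8 : K * t ^ s < d := by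
        calc K * t ^ s ≤ K * (d / (K + 1)) := mul_le_mul_of_nonneg_left h7 hK0
          _ < (K + 1) * (d / (K + 1)) := by
              apply mul_lt_mul_of_pos_right (by linarith) hq
          _ = d := by field_simp
      linarith
    exact h5.trans (mul_nonneg hK0 (Real.rpow_nonneg (norm_nonneg _) _))
  · have hg1 : ‖P.gr x ξ 0‖ ≤ 1 := hN.2.trans h1
    refine (HK x ξ _ hN le_rfl hg hg1 w hw).trans ?_
    refine mul_le_mul_of_nonneg_left ?_ hK0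
    exact Real.rpow_le_rpow_of_exponent_ge hg hg1 (le_max_left _ _)

/-- uniform invertibility of the derivative at the centre -/
def AqI (P : Pic L V) (ε₀ : ℝ) : Prop := ∃ C, ∀ x ξ, P.Nr ε₀ x ξ → ∃ A : E2 ≃L[ℝ] E2,
  (A.symm : E2 →L[ℝ] E2) = fderiv ℝ (P.Aq x ξ) 0 ∧ ‖(A : E2 →L[ℝ] E2)‖ ≤ C ∧
    ‖(A.symm : E2 →L[ℝ] E2)‖ ≤ C

/-- **T2a, normalised**: with `A = (D Aq(0))⁻¹`, `A ∘ Aq - id` is `O(t^κ)` in all `C^k`,
`k ≥ 1`. -/
def T2n (P : Pic L V) (ε₀ : ℝ) : Prop := ∀ κ : ℝ, (κ + 1) * P.Ra.b < 2 * P.Ra.a → ∀ k : ℕ, 1 ≤ k →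
  ∃ C, ∀ x ξ, P.Nr ε₀ x ξ → ∀ A : E2 ≃L[ℝ] E2,
    (A.symm : E2 →L[ℝ] E2) = fderiv ℝ (P.Aq x ξ) 0 → ∀ q ∈ ball (0 : E2) 1,
    ‖iteratedFDeriv ℝ k (fun q => A (P.Aq x ξ q) - q) q‖ ≤ C * ‖P.gr x ξ 0‖ ^ κ

theorem t2n {ε₀ : ℝ} (h0 : 0 < ε₀) (h1 : ε₀ ≤ 1) (hpin : P.Ra.b < 2 * P.Ra.a) (hR : P.RateP)
    (hA : AqB P ε₀) (hI : AqI P ε₀) (hK : KqB P ε₀) (hH : HqB P ε₀) (hG : AngB P ε₀) :
    T2n P ε₀ := by
  intro κ hκ k hk
  obtain ⟨CI, hCI⟩ := hI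
  -- the second derivative
  obtain ⟨C2, hC20, hC2⟩ := t2a_two h0 h1 hpin hR hA hK hH hG κ hκ 2 le_rfl
  have hsm : ∀ x ξ, P.Nr ε₀ x ξ → ContDiffOn ℝ ∞ (P.Aq x ξ) (ball 0 1) := by
    obtain ⟨C, hC⟩ := hA 0
    exact fun x ξ h => (hC x ξ h).1
  have hA' : ∀ x ξ, P.Nr ε₀ x ξ → ∀ A : E2 ≃L[ℝ] E2,
      (A.symm : E2 →L[ℝ] E2) = fderiv ℝ (P.Aq x ξ) 0 → ‖(A : E2 →L[ℝ] E2)‖ ≤ |CI| := by
    intro x ξ h A hAd
    obtain ⟨A', hA'1, hA'2, -⟩ := hCI x ξ h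
    have h3 : (A'.symm : E2 →L[ℝ] E2) = (A.symm : E2 →L[ℝ] E2) := by rw [hA'1, hAd]
    have h4 : A' = A := by
      have h5 : A'.symm = A.symm := ContinuousLinearEquiv.ext (by
        funext v
        exact congrArg (fun T : E2 →L[ℝ] E2 => T v) h3)
      rw [← ContinuousLinearEquiv.symm_symm A', h5, ContinuousLinearEquiv.symm_symm]
    rw [← h4]
    exact hA'2.trans (le_abs_self _)
  rcases Nat.lt_or_ge k 2 with hk2 | hk2
  · -- first derivative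
    have hk1 : k = 1 := by omega
    subst hk1
    refine ⟨|CI| * C2, fun x ξ hN A hAd q hq => ?_⟩
    have hs := hsm x ξ hN
    have hd : ∀ p ∈ ball (0 : E2) 1, DifferentiableAt ℝ (P.Aq x ξ) p := fun p hp =>
      (hs.contDiffAt (isOpen_ball.mem_nhds hp)).differentiableAt (by simp)
    have hd2 : ∀ p ∈ ball (0 : E2) 1, DifferentiableAt ℝ (fderiv ℝ (P.Aq x ξ)) p := fun p hp =>
      ((hs.contDiffAt (isOpen_ball.mem_nhds hp)).fderiv_right (m := ∞) (by simp)).differentiableAt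
        (by simp)
    have h3 : fderiv ℝ (fun q => A (P.Aq x ξ q) - q) q =
        (A : E2 →L[ℝ] E2).comp (fderiv ℝ (P.Aq x ξ) q - fderiv ℝ (P.Aq x ξ) 0) := by
      have e1 : HasFDerivAt (fun q => A (P.Aq x ξ q) - q)
          ((A : E2 →L[ℝ] E2).comp (fderiv ℝ (P.Aq x ξ) q) - ContinuousLinearMap.id ℝ E2) q :=
        ((A : E2 →L[ℝ] E2).hasFDerivAt.comp q (hd q hq).hasFDerivAt).sub (hasFDerivAt_id q)
      rw [e1.fderiv, ContinuousLinearMap.comp_sub, ← hAd]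
      congr 1
      ext v
      simp
    have h4 : ‖fderiv ℝ (P.Aq x ξ) q - fderiv ℝ (P.Aq x ξ) 0‖ ≤
        (C2 * ‖P.gr x ξ 0‖ ^ κ) * ‖q - 0‖ :=
      (convex_ball (0 : E2) 1).norm_image_sub_le_of_norm_fderiv_le hd2 (fun p hp => by
        have := hC2 x ξ hN p hp
        rwa [← norm_iteratedFDeriv_fderiv, norm_iteratedFDeriv_one] at this)
        (mem_ball_self one_pos) hq
    have hpos : 0 ≤ C2 * ‖P.gr x ξ 0‖ ^ κ := mul_nonneg hC20 (Real.rpow_nonneg (norm_nonneg _) _)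
    rw [norm_iteratedFDeriv_one, h3]
    calc ‖(A : E2 →L[ℝ] E2).comp (fderiv ℝ (P.Aq x ξ) q - fderiv ℝ (P.Aq x ξ) 0)‖
        ≤ ‖(A : E2 →L[ℝ] E2)‖ * ‖fderiv ℝ (P.Aq x ξ) q - fderiv ℝ (P.Aq x ξ) 0‖ :=
          ContinuousLinearMap.opNorm_comp_le _ _
      _ ≤ |CI| * ((C2 * ‖P.gr x ξ 0‖ ^ κ) * 1) := by
          refine mul_le_mul (hA' x ξ hN A hAd) (h4.trans ?_) (norm_nonneg _) (abs_nonneg _)
          refine mul_le_mul_of_nonneg_left ?_ hpos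
          rw [sub_zero]
          have : ‖q‖ < 1 := by simpa using hq
          exact this.le
      _ = |CI| * C2 * ‖P.gr x ξ 0‖ ^ κ := by ring
  · obtain ⟨Ck, hCk0, hCk⟩ := t2a_two h0 h1 hpin hR hA hK hH hG κ hκ k hk2
    refine ⟨|CI| * Ck, fun x ξ hN A hAd q hq => ?_⟩
    have hs := hsm x ξ hN
    have hle : ((k : ℕ∞) : WithTop ℕ∞) ≤ ∞ := by exact_mod_cast le_top
    have hat : ContDiffAt ℝ ∞ (P.Aq x ξ) q := hs.contDiffAt (isOpen_ball.mem_nhds hq)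
    have hat2 : ContDiffAt ℝ ∞ (fun q => A (P.Aq x ξ q)) q :=
      (A : E2 →L[ℝ] E2).contDiff.contDiffAt.comp q hat
    have h3 : iteratedFDeriv ℝ k (fun q => A (P.Aq x ξ q) - q) q =
        iteratedFDeriv ℝ k (fun q => A (P.Aq x ξ q)) q - iteratedFDeriv ℝ k (fun q : E2 => q) q :=
      iteratedFDeriv_sub_apply (hat2.of_le hle) contDiffAt_id
    have h4 : iteratedFDeriv ℝ k (fun q : E2 => q) q = 0 := by
      have h5 : iteratedFDeriv ℝ k (⇑(ContinuousLinearMap.id ℝ E2)) q = 0 := by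
        obtain ⟨m, rfl⟩ : ∃ m, k = m + 2 := ⟨k - 2, by omega⟩
        have h6 : ‖iteratedFDeriv ℝ (m + 2) (⇑(ContinuousLinearMap.id ℝ E2)) q‖ = 0 := by
          rw [← norm_iteratedFDeriv_fderiv]
          have : fderiv ℝ (⇑(ContinuousLinearMap.id ℝ E2)) = fun _ => ContinuousLinearMap.id ℝ E2 := by
            funext y; exact ContinuousLinearMap.fderiv _
          rw [this, iteratedFDeriv_const_of_ne (Nat.succ_ne_zero m)]
          simp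
        exact norm_eq_zero.1 h6
      exact h5
    have h5 : iteratedFDeriv ℝ k (fun q => A (P.Aq x ξ q)) q =
        (A : E2 →L[ℝ] E2).compContinuousMultilinearMap (iteratedFDeriv ℝ k (P.Aq x ξ) q) :=
      (A : E2 →L[ℝ] E2).iteratedFDeriv_comp_left hat hle
    rw [h3, h4, sub_zero, h5]
    calc ‖(A : E2 →L[ℝ] E2).compContinuousMultilinearMap (iteratedFDeriv ℝ k (P.Aq x ξ) q)‖
        ≤ ‖(A : E2 →L[ℝ] E2)‖ * ‖iteratedFDeriv ℝ k (P.Aq x ξ) q‖ :=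
          ContinuousLinearMap.norm_compContinuousMultilinearMap_le _ _
      _ ≤ |CI| * (Ck * ‖P.gr x ξ 0‖ ^ κ) := by
          refine mul_le_mul (hA' x ξ hN A hAd) (hCk x ξ hN q hq) (norm_nonneg _) (abs_nonneg _)
      _ = _ := by ring

end Vale.Agent.P207.N4.V.H790
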