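import Vale.Agent.P207.N5.H547.AffLemB
import Vale.Agent.P207.N5.H790.T2a

/-!
# P207, line N5, row T2a: uniform bounds of the charts of the neighbouring leaves

`near_open`: an invariant neighbourhood of the diagonal `{(x, em x)}` contains all `(x, ξ)` with
`Nr ρ x ξ`, `ρ` small. `exists_aq`: uniform `C^k` bounds of `P.Aq x ξ` on `closedBall 0 2`, and
`P.Aq x ξ → id` in all `C^k`. `exists_kq`: `ch x (Th x ξ w) → w`.
-/

set_option linter.all false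
set_option maxSynthPendingDepth 3

open Set Filter Topology Metric MeasureTheory
open scoped ContDiff

noncomputable section

namespace Vale.Agent.P207.N4.V.H790

open Vale.Agent.P207.N4.H790

open Vale.Agent.P207.N3

variable [Dim]

variable {Γ X B : Type} [Group Γ] [MetricSpace X] [ProperSpace X] [MulAction Γ X]
  [IsIsometricSMul Γ X] [TopologicalSpace B] [CompactSpace B] [T2Space B] [MulAction Γ B]
  [ContinuousConstSMul Γ B] {L : Leaf Γ X B} [MeasurableSpace B] [BorelSpace B] {V : Type}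
  [NormedAddCommGroup V] [NormedSpace ℝ V] [FiniteDimensional ℝ V] {P : Pic L V}

theorem zero_mem3 : (0 : E2) ∈ ball (0 : E2) 3 := mem_ball_self (by norm_num)

theorem nu_cont0 (P : Pic L V) : Continuous fun p : X × B => P.Bu.nu p.1 p.2 0 := by
  have h := P.Bu.nu_cont
  rw [← continuousOn_univ]
  exact h.comp (f := fun p : X × B => ((p, (0 : E2)) : (X × B) × E2)) (by fun_prop)
    fun p _ => ⟨mem_univ _, zero_mem3⟩

theorem gr_cont0 (P : Pic L V) : Continuous fun p : X × B => P.gr p.1 p.2 0 := by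
  have h := P.gr_jc.continuousOn
  rw [← continuousOn_univ]
  exact h.comp (f := fun p : X × B => ((p, (0 : E2)) : (X × B) × E2)) (by fun_prop)
    fun p _ => P.closedBall_dTB p.1 p.2 (mem_closedBall_self (by norm_num))

theorem eq_em {x : X} {ξ : B} (h0 : 0 ≤ P.Bu.nu x ξ 0) (h1 : P.gr x ξ 0 = 0) : ξ = L.em x := by
  have h2 : gradient (P.Bu.be x ξ) 0 = 0 := by
    have := P.gr_zero x ξ
    rw [h1] at this
    have hc : P.Af.c⁻¹ ≠ 0 := inv_ne_zero P.Af.c_pos.ne'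
    exact (smul_eq_zero.1 this.symm).resolve_left hc
  exact P.Bu.cov_inj x ξ (L.em x) 0 zero_mem3 h0 (P.Bu.nu_em x).le (by rw [h2, P.Bu.be_crit])

theorem nu_smul0 (g : Γ) (x : X) (ξ : B) : P.Bu.nu (g • x) (g • ξ) 0 = P.Bu.nu x ξ 0 :=
  P.Bu.nu_smul g x ξ 0 zero_mem3

theorem gr_smul0 (g : Γ) (x : X) (ξ : B) : P.gr (g • x) (g • ξ) 0 = P.gr x ξ 0 :=
  P.gr_smul g (P.Af.zero_dT x) ξ

/-- an invariant neighbourhood of the diagonal contains all the near pairs -/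
theorem near_open (P : Pic L V) {O : Set (X × B)} (hO : ∀ x, O ∈ 𝓝 ((x, L.em x) : X × B))
    (hinv : ∀ (g : Γ) x ξ, ((g • x, g • ξ) : X × B) ∈ O → ((x, ξ) : X × B) ∈ O) :
    ∃ ρ : ℝ, 0 < ρ ∧ ∀ x ξ, 0 ≤ P.Bu.nu x ξ 0 → ‖P.gr x ξ 0‖ ≤ ρ → ((x, ξ) : X × B) ∈ O := by
  obtain ⟨K, hK, hK'⟩ := L.cocompact
  set D : Set (X × B) := (K ×ˢ univ) \ interior O with hDd
  have hD : IsCompact D := (hK.prod isCompact_univ).diff isOpen_interior
  set f : X × B → ℝ := fun p => max ‖P.gr p.1 p.2 0‖ (-P.Bu.nu p.1 p.2 0) with hf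
  have hfc : Continuous f := (gr_cont0 P).norm.max (nu_cont0 P).neg
  have hpos : ∀ p ∈ D, 0 < f p := by
    intro p hp
    by_contra hc
    push Not at hc
    have h1 : ‖P.gr p.1 p.2 0‖ ≤ 0 := (le_max_left _ _).trans hc
    have h2 : -P.Bu.nu p.1 p.2 0 ≤ 0 := (le_max_right _ _).trans hc
    have h3 : p.2 = L.em p.1 := eq_em (by linarith) (norm_le_zero_iff.1 h1)
    apply hp.2
    have h4 : p = (p.1, L.em p.1) := by rw [← h3]
    rw [h4]
    exact mem_interior_iff_mem_nhds.2 (hO p.1)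
  have key : ∀ ρ : ℝ, (∀ p ∈ D, ρ < f p) → 0 ≤ ρ → ∀ x ξ, 0 ≤ P.Bu.nu x ξ 0 →
      ‖P.gr x ξ 0‖ ≤ ρ → ((x, ξ) : X × B) ∈ O := by
    intro ρ hρ hρ0 x ξ h1 h2
    obtain ⟨g, hg⟩ := hK' x
    apply hinv g
    by_contra hc
    have h3 : ((g • x, g • ξ) : X × B) ∈ D :=
      ⟨⟨hg, mem_univ _⟩, fun h => hc (interior_subset h)⟩
    have h4 := hρ _ h3
    have h5 : f (g • x, g • ξ) ≤ ρ := by
      show max ‖P.gr (g • x) (g • ξ) 0‖ (-P.Bu.nu (g • x) (g • ξ) 0) ≤ ρ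
      rw [nu_smul0, gr_smul0]
      exact max_le h2 (by linarith)
    linarith
  rcases D.eq_empty_or_nonempty with h | h
  · exact ⟨1, one_pos, key 1 (fun p hp => by rw [h] at hp; exact hp.elim) zero_le_one⟩
  · obtain ⟨p, hp, hmin⟩ := hD.exists_isMinOn h hfc.continuousOn
    have h1 := hpos p hp
    refine ⟨f p / 2, half_pos h1, key _ (fun p' hp' => ?_) (half_pos h1).le⟩
    have h2 : f p ≤ f p' := hmin hp'
    linarith

/-! ### the charts as a family with two frames -/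

theorem sgm_mem {x z : X} {q : E2} (h : ((x, z), q) ∈ sgD L P.Bu.en) :
    sgm L P.Bu.en x z q ∈ ball (0 : E2) 3 ∧
      L.e z (sgm L P.Bu.en x z q) = P.Bu.en x (L.em z) q := by
  obtain ⟨u, hu, he⟩ := h.2
  have hu3 := ball_subset_closedBall hu
  have h1 : sgm L P.Bu.en x z q = u := by
    show Function.invFunOn (L.e z) (closedBall (0 : E2) 3) (P.Bu.en x (L.em z) q) = u
    rw [← he]
    exact (L.e_inj z).leftInvOn_invFunOn hu3
  rw [h1]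
  exact ⟨hu, he⟩

/-- the family -/
def Gz (P : Pic L V) (p : X × X) (q : E2) : E2 :=
  P.Af.cu p.2 (sgm L P.Bu.en p.1 p.2 (P.dsc p.1 q))

/-- its domain -/
def SG (P : Pic L V) : Set ((X × X) × E2) :=
  {p | (p.1.1, p.2) ∈ P.Af.dT ∧ (p.1, P.dsc p.1.1 p.2) ∈ sgD L P.Bu.en}

theorem Gz_jc (P : Pic L V) : JC (Gz P) (SG P) := by
  have h1 : JC (fun (p : X × X) q => P.dsc p.1 q) {p | (p.1.1, p.2) ∈ P.Af.dT} :=
    P.Af.dsc_jc.pullback continuous_fst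
  have h2 : JC (fun (p : X × X) q => sgm L P.Bu.en p.1 p.2 (P.dsc p.1 q)) (SG P) :=
    P.Bu.sg_jc.comp h1
  have h3 : JC (fun (p : X × X) u => P.Af.cu p.2 u)
      {p | (p.1.2, p.2) ∈ (univ : Set X) ×ˢ ball (0 : E2) 3} :=
    P.Af.cu_jc.pullback continuous_snd
  exact h3.comp' h2 fun p hp => ⟨mem_univ _, (sgm_mem (P := P) (x := p.1.1) (z := p.1.2) hp.2).1⟩

theorem Aq_eq {x : X} {ξ : B} (hξ : ξ ≠ L.ep x) {q : E2} (h : ((x, L.hol ξ x), q) ∈ SG P) :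
    P.Aq x ξ q = Gz P (x, L.hol ξ x) q := by
  have h1 := (sgm_mem (P := P) h.2).2
  show P.Af.ch (L.hol ξ x) (P.Bu.en x ξ (P.dsc x q)) =
    P.Af.ch (L.hol ξ x) (L.e (L.hol ξ x) (sgm L P.Bu.en x (L.hol ξ x) (P.dsc x q)))
  rw [h1, L.hol_em ξ x hξ]

theorem diag_mem (x : X) {q : E2} (hq : (x, q) ∈ P.Af.dT) : ((x, x), q) ∈ SG P := by
  have h3 := P.mem3 hq
  refine ⟨hq, h3, ?_⟩
  show P.Bu.en x (L.em x) (P.dsc x q) ∈ L.e x '' ball (0 : E2) 3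
  rw [P.Bu.en_em x _ h3]
  exact mem_image_of_mem _ h3

theorem Gz_diag (x : X) {q : E2} (hq : (x, q) ∈ P.Af.dT) : Gz P (x, x) q = q := by
  have h := diag_mem (P := P) x hq
  have h1 := (sgm_mem (P := P) h.2).2
  show P.Af.ch x (L.e x (sgm L P.Bu.en x x (P.dsc x q))) = q
  rw [h1, P.Bu.en_em x _ (P.mem3 hq), P.e_dsc hq, P.Af.ch_pt]

theorem Th_ne' (x : X) (ξ : B) {q : E2} (hq : (x, q) ∈ P.Af.dT) : P.Th x ξ q ≠ ξ := by
  obtain ⟨z, hz1, hz2, -⟩ := P.Bu.exists_fr x ξ (P.dsc x q) (P.mem3 hq)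
  intro h
  have h' : P.Bu.en x ξ (P.dsc x q) = ξ := h
  exact L.em_ne_ep z (by rw [hz1, hz2, h'])

theorem Th_smul (g : Γ) {x : X} {q : E2} (hq : (x, q) ∈ P.Af.dT) (ξ : B) :
    P.Th (g • x) (g • ξ) q = g • P.Th x ξ q := by
  show P.Bu.en (g • x) (g • ξ) (P.Af.dsc (g • x) q) = g • P.Bu.en x ξ (P.Af.dsc x q)
  rw [P.Af.dsc_smul g hq, P.Bu.en_smul g x ξ _ (P.Af.dsc_mem hq)]

theorem Aq_smul (g : Γ) {x : X} {ξ : B} (hξ : ξ ≠ L.ep x) {q : E2} (hq : (x, q) ∈ P.Af.dT) :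
    P.Aq (g • x) (g • ξ) q = P.Aq x ξ q := by
  show P.Af.ch (L.hol (g • ξ) (g • x)) (P.Th (g • x) (g • ξ) q) =
    P.Af.ch (L.hol ξ x) (P.Th x ξ q)
  rw [Th_smul g hq, L.hol_smul g ξ x hξ]
  exact P.Af.ch_smul g _ _ (by rw [L.hol_em ξ x hξ]; exact Th_ne' x ξ hq)

theorem ep_smul (g : Γ) (x : X) : L.ep (g • x) = g • L.ep x := by
  rw [L.ep_flip, L.ep_flip, L.flip_smul, L.em_smul]

theorem ep_cont : Continuous L.ep := by
  have : L.ep = fun x => L.em (L.flip x) := funext L.ep_flip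
  rw [this]
  exact L.em_cont.comp L.flip_cont

/-- the pair of frames tends to the diagonal -/
theorem hol_tendsto (x : X) : Tendsto (fun p : X × B => ((p.1, L.hol p.2 p.1) : X × X))
    (𝓝 (x, L.em x)) (𝓝 (x, x)) := by
  have hopen : IsOpen {p : B × X | p.1 ≠ L.ep p.2} :=
    isOpen_ne_fun continuous_fst (ep_cont.comp continuous_snd)
  have h1 : ContinuousAt (fun p : B × X => L.hol p.1 p.2) (L.em x, x) :=
    L.hol_cont.continuousAt (hopen.mem_nhds (L.em_ne_ep x))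
  have h2 : Tendsto (fun p : X × B => L.hol p.2 p.1) (𝓝 (x, L.em x)) (𝓝 x) := by
    have h3 := h1.tendsto.comp (continuous_swap.tendsto ((x, L.em x) : X × B))
    rwa [L.hol_self] at h3
  exact (continuous_fst.tendsto _).prodMk_nhds h2

theorem ne_ep_near (x : X) : ∀ᶠ p : X × B in 𝓝 (x, L.em x), p.2 ≠ L.ep p.1 :=
  (isOpen_ne_fun continuous_snd (ep_cont.comp continuous_fst)).mem_nhds (L.em_ne_ep x)

/-- **`Aq` is close to the identity in `C^k`** -/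
theorem exists_close (P : Pic L V) (k : ℕ) {ε : ℝ} (hε : 0 < ε) :
    ∃ ρ : ℝ, 0 < ρ ∧ ∀ x ξ, 0 ≤ P.Bu.nu x ξ 0 → ‖P.gr x ξ 0‖ ≤ ρ → ξ ≠ L.ep x ∧
      ∀ q ∈ closedBall (0 : E2) 2, ((x, L.hol ξ x), q) ∈ SG P ∧
        ‖iteratedFDeriv ℝ k (fun q => P.Aq x ξ q - q) q‖ < ε := by
  have hjc : JC (fun (p : X × X) q => Gz P p q - q) (SG P) :=
    (Gz_jc P).sub (JC.id (Gz_jc P).isOpen)
  have hcongr : ∀ {x : X} {ξ : B}, ξ ≠ L.ep x → ∀ {q : E2}, ((x, L.hol ξ x), q) ∈ SG P →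
      iteratedFDeriv ℝ k (fun q => P.Aq x ξ q - q) q =
        iteratedFDeriv ℝ k (fun q => Gz P (x, L.hol ξ x) q - q) q := by
    intro x ξ hξ q hq
    have h1 : (fun q => P.Aq x ξ q - q) =ᶠ[𝓝 q] fun q => Gz P (x, L.hol ξ x) q - q := by
      filter_upwards [(isOpen_slice (Gz_jc P).isOpen (x, L.hol ξ x)).mem_nhds hq] with w hw
      rw [Aq_eq hξ hw]
    exact (h1.iteratedFDeriv ℝ k).self_of_nhds
  refine near_open P (O := {p : X × B | p.2 ≠ L.ep p.1 ∧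
      ∀ q ∈ closedBall (0 : E2) 2, ((p.1, L.hol p.2 p.1), q) ∈ SG P ∧
        ‖iteratedFDeriv ℝ k (fun q => P.Aq p.1 p.2 q - q) q‖ < ε}) ?_ ?_
  · intro x
    have h1 := hjc.eventually (z₀ := (x, x)) (isCompact_closedBall (0 : E2) 2)
      (fun q hq => diag_mem x (P.Af.closedBall_dT x hq)) k hε
    have h2 := (hol_tendsto (L := L) x).eventually h1
    filter_upwards [h2, ne_ep_near (L := L) x] with p hp hp2
    refine ⟨hp2, fun q hq => ⟨(hp q hq).1, ?_⟩⟩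
    have h3 := (hp q hq).2
    have h4 : iteratedFDeriv ℝ k (fun q => Gz P (x, x) q - q) q = 0 := by
      have h5 : (fun q => Gz P (x, x) q - q) =ᶠ[𝓝 q] fun _ => (0 : E2) := by
        filter_upwards [(isOpen_slice P.Af.isOpen_dT x).mem_nhds (P.Af.closedBall_dT x hq)]
          with w hw
        rw [Gz_diag x hw, sub_self]
      rw [(h5.iteratedFDeriv ℝ k).self_of_nhds, iteratedFDeriv_zero_fun]
      rfl
    rw [h4, sub_zero] at h3
    rw [hcongr hp2 (hp q hq).1]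
    exact h3
  · rintro g x ξ ⟨h1, h2⟩
    have hξ : ξ ≠ L.ep x := by
      rintro rfl
      exact h1 (ep_smul g x).symm
    refine ⟨hξ, fun q hq => ?_⟩
    obtain ⟨h3, h4⟩ := h2 q hq
    have hdT := P.Af.closedBall_dT x hq
    have hSG : ((x, L.hol ξ x), q) ∈ SG P := by
      refine ⟨hdT, P.mem3 hdT, ?_⟩
      obtain ⟨u, hu, he⟩ := h3.2.2
      refine ⟨u, hu, ?_⟩
      have h5 : L.hol (g • ξ) (g • x) = g • L.hol ξ x := L.hol_smul g ξ x hξ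
      have h6 : L.e (L.hol (g • ξ) (g • x)) u =
          P.Bu.en (g • x) (L.em (L.hol (g • ξ) (g • x))) (P.dsc (g • x) q) := he
      rw [h5, L.em_smul, L.e_smul g _ u (ball_subset_closedBall hu)] at h6
      have h7 : P.dsc (g • x) q = P.dsc x q := P.Af.dsc_smul g hdT
      rw [h7, P.Bu.en_smul g x _ _ (P.mem3 hdT)] at h6
      exact MulAction.injective g h6
    refine ⟨hSG, ?_⟩
    have h5 : (fun q => P.Aq x ξ q - q) =ᶠ[𝓝 q] fun q => P.Aq (g • x) (g • ξ) q - q := by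
      filter_upwards [(isOpen_slice P.Af.isOpen_dT x).mem_nhds hdT] with w hw
      rw [Aq_smul g hξ hw]
    rw [(h5.iteratedFDeriv ℝ k).self_of_nhds]
    exact h4

/-- **uniform bounds** -/
theorem exists_aqB (P : Pic L V) : ∃ ρ : ℝ, 0 < ρ ∧ (∀ x ξ, 0 ≤ P.Bu.nu x ξ 0 →
    ‖P.gr x ξ 0‖ ≤ ρ → ξ ≠ L.ep x ∧ ∀ q ∈ closedBall (0 : E2) 2, ((x, L.hol ξ x), q) ∈ SG P) ∧
    ∀ k : ℕ, ∃ C, ∀ x ξ, 0 ≤ P.Bu.nu x ξ 0 → ‖P.gr x ξ 0‖ ≤ ρ → ∀ q ∈ closedBall (0 : E2) 2,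
      ContDiffAt ℝ ∞ (P.Aq x ξ) q ∧ ‖iteratedFDeriv ℝ k (P.Aq x ξ) q‖ ≤ C := by
  obtain ⟨ρ, hρ, H⟩ := exists_close P 0 one_pos
  refine ⟨ρ, hρ, fun x ξ h1 h2 => ⟨(H x ξ h1 h2).1, fun q hq => ((H x ξ h1 h2).2 q hq).1⟩,
    fun k => ?_⟩
  obtain ⟨K, hK, hK'⟩ := L.cocompact
  set C : Set (X × B) := (K ×ˢ univ) ∩ {p | 0 ≤ P.Bu.nu p.1 p.2 0 ∧ ‖P.gr p.1 p.2 0‖ ≤ ρ} with hC
  have hCc : IsCompact C := by
    refine (hK.prod isCompact_univ).inter_right ?_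
    exact (isClosed_le continuous_const (nu_cont0 P)).inter
      (isClosed_le (gr_cont0 P).norm continuous_const)
  have hcont : ContinuousOn (fun p : (X × B) × E2 =>
      (((p.1.1, L.hol p.1.2 p.1.1), p.2) : (X × X) × E2)) (C ×ˢ closedBall (0 : E2) 2) := by
    have h1 : ContinuousOn (fun p : (X × B) × E2 => L.hol p.1.2 p.1.1)
        (C ×ˢ closedBall (0 : E2) 2) :=
      L.hol_cont.comp (f := fun p : (X × B) × E2 => ((p.1.2, p.1.1) : B × X)) (by fun_prop)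
        fun p hp => (H p.1.1 p.1.2 hp.1.2.1 hp.1.2.2).1
    have h0 : ContinuousOn (fun p : (X × B) × E2 => p.1.1) (C ×ˢ closedBall (0 : E2) 2) := by
      fun_prop
    have h2 : ContinuousOn (fun p : (X × B) × E2 => p.2) (C ×ˢ closedBall (0 : E2) 2) := by
      fun_prop
    exact (h0.prodMk h1).prodMk h2
  obtain ⟨M, hM⟩ := (hCc.prod (isCompact_closedBall (0 : E2) 2)).exists_bound_of_continuousOn
    (((Gz_jc P).cont k).comp hcont fun p hp =>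
      ((H p.1.1 p.1.2 hp.1.2.1 hp.1.2.2).2 p.2 hp.2).1)
  refine ⟨M, fun x ξ h1 h2 q hq => ?_⟩
  obtain ⟨hξ, hS⟩ := H x ξ h1 h2
  have hSq := (hS q hq).1
  have hat : ContDiffAt ℝ ∞ (P.Aq x ξ) q := by
    refine ((Gz_jc P).contDiffAt hSq).congr_of_eventuallyEq ?_
    filter_upwards [(isOpen_slice (Gz_jc P).isOpen (x, L.hol ξ x)).mem_nhds hSq] with w hw
    exact Aq_eq hξ hw
  refine ⟨hat, ?_⟩
  obtain ⟨g, hg⟩ := hK' x
  have h1' : 0 ≤ P.Bu.nu (g • x) (g • ξ) 0 := by rw [nu_smul0]; exact h1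
  have h2' : ‖P.gr (g • x) (g • ξ) 0‖ ≤ ρ := by rw [gr_smul0]; exact h2
  obtain ⟨hξ', hS'⟩ := H (g • x) (g • ξ) h1' h2'
  have e1 : P.Aq x ξ =ᶠ[𝓝 q] P.Aq (g • x) (g • ξ) := by
    filter_upwards [(isOpen_slice P.Af.isOpen_dT x).mem_nhds (P.Af.closedBall_dT x hq)] with w hw
    rw [Aq_smul g hξ hw]
  have e2 : P.Aq (g • x) (g • ξ) =ᶠ[𝓝 q] Gz P (g • x, L.hol (g • ξ) (g • x)) := by
    filter_upwards [(isOpen_slice (Gz_jc P).isOpen (g • x, L.hol (g • ξ) (g • x))).mem_nhds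
      (hS' q hq).1] with w hw
    exact Aq_eq hξ' hw
  rw [((e1.trans e2).iteratedFDeriv ℝ k).self_of_nhds]
  exact hM ((g • x, g • ξ), q) ⟨⟨⟨hg, mem_univ _⟩, h1', h2'⟩, hq⟩

/-- **the crossings are close**: `ch x (Th x ξ w) → w` -/
theorem exists_kq (P : Pic L V) {ε : ℝ} (hε : 0 < ε) :
    ∃ ρ : ℝ, 0 < ρ ∧ ∀ x ξ, 0 ≤ P.Bu.nu x ξ 0 → ‖P.gr x ξ 0‖ ≤ ρ →
      ∀ w ∈ closedBall (0 : E2) 2, P.Th x ξ w ≠ L.em x ∧
        ‖P.Af.ch x (P.Th x ξ w) - w‖ < ε := by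
  have hTh : ContinuousOn (fun p : (X × B) × E2 => P.Th p.1.1 p.1.2 p.2) P.dTB := by
    refine P.Bu.en_cont.comp (f := fun p : (X × B) × E2 => ((p.1, P.dsc p.1.1 p.2) : (X × B) × E2))
      (continuousOn_fst.prodMk P.dscB_jc.continuousOn) fun p hp => ⟨mem_univ _, P.mem3 hp⟩
  refine (near_open P (O := {p : X × B | ∀ w ∈ closedBall (0 : E2) 2, P.Th p.1 p.2 w ≠ L.em p.1 ∧
        ‖P.Af.ch p.1 (P.Th p.1 p.2 w) - w‖ < ε}) ?_ ?_)
  · intro x
    have hev : ∀ w ∈ closedBall (0 : E2) 2, ∀ᶠ p : (X × B) × E2 in 𝓝 ((x, L.em x), w),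
        P.Th p.1.1 p.1.2 p.2 ≠ L.em p.1.1 ∧
          ‖P.Af.ch p.1.1 (P.Th p.1.1 p.1.2 p.2) - p.2‖ < ε := by
      intro w hw
      have hdT := P.Af.closedBall_dT x hw
      have hmem : P.dTB ∈ 𝓝 (((x, L.em x), w) : (X × B) × E2) := P.isOpen_dTB.mem_nhds hdT
      have h1 : ContinuousAt (fun p : (X × B) × E2 => P.Th p.1.1 p.1.2 p.2) ((x, L.em x), w) :=
        hTh.continuousAt hmem
      have hval : P.Th x (L.em x) w = P.Af.pt x w := P.Th_em x hdT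
      have hne : P.Th x (L.em x) w ≠ L.em x := by rw [hval]; exact P.Af.pt_ne x w
      have h2 : ContinuousAt (fun p : (X × B) × E2 => ((p.1.1, P.Th p.1.1 p.1.2 p.2) : X × B))
          ((x, L.em x), w) :=
        ContinuousAt.prodMk (continuous_fst.comp continuous_fst).continuousAt h1
      have hop : IsOpen {p : X × B | p.2 ≠ L.em p.1} :=
        isOpen_ne_fun continuous_snd (L.em_cont.comp continuous_fst)
      have h3 : ContinuousAt (fun p : X × B => P.Af.ch p.1 p.2) (x, P.Th x (L.em x) w) :=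
        P.Af.ch_cont.continuousAt (hop.mem_nhds hne)
      have h4 : ContinuousAt (fun p : (X × B) × E2 => P.Af.ch p.1.1 (P.Th p.1.1 p.1.2 p.2))
          ((x, L.em x), w) :=
        ContinuousAt.comp (g := fun p : X × B => P.Af.ch p.1 p.2)
          (f := fun p : (X × B) × E2 => ((p.1.1, P.Th p.1.1 p.1.2 p.2) : X × B)) h3 h2
      have h5 : ContinuousAt (fun p : (X × B) × E2 =>
          ‖P.Af.ch p.1.1 (P.Th p.1.1 p.1.2 p.2) - p.2‖) ((x, L.em x), w) :=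
        (h4.sub continuous_snd.continuousAt).norm
      have h6 : ‖P.Af.ch x (P.Th x (L.em x) w) - w‖ = 0 := by
        rw [hval, P.Af.ch_pt, sub_self, norm_zero]
      refine (h2.eventually (hop.mem_nhds hne)).and ?_
      have h7 := h5.tendsto
      simp only at h7
      rw [h6] at h7
      exact h7.eventually (gt_mem_nhds hε)
    have := (isCompact_closedBall (0 : E2) 2).eventually_forall_of_forall_eventually
      (x₀ := ((x, L.em x) : X × B))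
      (P := fun (p : X × B) (w : E2) => P.Th p.1 p.2 w ≠ L.em p.1 ∧
        ‖P.Af.ch p.1 (P.Th p.1 p.2 w) - w‖ < ε) fun w hw => hev w hw
    exact this
  · intro g x ξ h w hw
    obtain ⟨h1, h2⟩ := h w hw
    have hdT := P.Af.closedBall_dT x hw
    simp only at h1 h2
    rw [Th_smul g hdT, L.em_smul] at h1
    have h3 : P.Th x ξ w ≠ L.em x := fun h => h1 (by rw [h])
    refine ⟨h3, ?_⟩
    rw [Th_smul g hdT, P.Af.ch_smul g _ _ h3] at h2
    exact h2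

/-! ### the inputs of `T2a` -/

theorem exists_AqB (P : Pic L V) : ∃ ρ : ℝ, 0 < ρ ∧ ∀ ε₀ ≤ ρ, AqB P ε₀ := by
  obtain ⟨ρ, hρ, -, H⟩ := exists_aqB P
  refine ⟨ρ, hρ, fun ε₀ hε k => ?_⟩
  obtain ⟨C, hC⟩ := H k
  refine ⟨C, fun x ξ hN => ?_⟩
  have h2 : ∀ {q : E2}, q ∈ ball (0 : E2) 1 → q ∈ closedBall (0 : E2) 2 := by
    intro q hq
    rw [mem_ball] at hq
    rw [mem_closedBall]
    linarith
  exact ⟨fun q hq => (hC x ξ hN.1.le (hN.2.trans hε) q (h2 hq)).1.contDiffWithinAt,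
    fun q hq => (hC x ξ hN.1.le (hN.2.trans hε) q (h2 hq)).2⟩

/-- the second clause of `T2a` -/
theorem exists_fderiv_close (P : Pic L V) {ε : ℝ} (hε : 0 < ε) :
    ∃ ρ : ℝ, 0 < ρ ∧ ∀ x ξ, P.Nr ρ x ξ → ∀ q ∈ closedBall (0 : E2) 2,
      ‖fderiv ℝ (P.Aq x ξ) q - ContinuousLinearMap.id ℝ E2‖ < ε := by
  obtain ⟨ρ₁, hρ₁, H₁⟩ := exists_close P 1 hε
  obtain ⟨ρ₂, hρ₂, -, H₂⟩ := exists_aqB P
  obtain ⟨C, hC⟩ := H₂ 0
  refine ⟨min ρ₁ ρ₂, lt_min hρ₁ hρ₂, fun x ξ hN q hq => ?_⟩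
  have h1 := ((H₁ x ξ hN.1.le (hN.2.trans (min_le_left _ _))).2 q hq).2
  have h2 := (hC x ξ hN.1.le (hN.2.trans (min_le_right _ _)) q hq).1
  rw [norm_iteratedFDeriv_one] at h1
  have h3 : fderiv ℝ (fun q => P.Aq x ξ q - q) q =
      fderiv ℝ (P.Aq x ξ) q - ContinuousLinearMap.id ℝ E2 :=
    ((h2.differentiableAt (by simp)).hasFDerivAt.sub (hasFDerivAt_id q)).fderiv
  rwa [h3] at h1

/-- an operator close to the identity -/
theorem exists_equiv_of_close {A : E2 →L[ℝ] E2}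
    (h : ‖A - ContinuousLinearMap.id ℝ E2‖ ≤ 1 / 2) : ∃ T : E2 ≃L[ℝ] E2,
    (T.symm : E2 →L[ℝ] E2) = A ∧ ‖(T : E2 →L[ℝ] E2)‖ ≤ 2 ∧ ‖(T.symm : E2 →L[ℝ] E2)‖ ≤ 2 := by
  have h1 : ∀ v, ‖v‖ ≤ 2 * ‖A v‖ := by
    intro v
    have h2 : ‖A v - v‖ ≤ 1 / 2 * ‖v‖ :=
      (ContinuousLinearMap.le_opNorm (A - ContinuousLinearMap.id ℝ E2) v).trans
        (mul_le_mul_of_nonneg_right h (norm_nonneg _))
    have h3 : ‖v‖ ≤ ‖A v‖ + ‖A v - v‖ := by
      calc ‖v‖ = ‖A v - (A v - v)‖ := by congr 1; abel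
        _ ≤ _ := norm_sub_le _ _
    linarith
  have hinj : Function.Injective (A : E2 →ₗ[ℝ] E2) := by
    rw [← LinearMap.ker_eq_bot, LinearMap.ker_eq_bot']
    intro v hv
    have h2 := h1 v
    have h3 : A v = 0 := hv
    rw [h3, norm_zero, mul_zero] at h2
    exact norm_le_zero_iff.1 h2
  set T := (LinearEquiv.ofInjectiveEndo (A : E2 →ₗ[ℝ] E2) hinj).toContinuousLinearEquiv with hT
  have hTA : ∀ v, T v = A v := fun v => rfl
  refine ⟨T.symm, ?_, ?_, ?_⟩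
  · ext1 v
    exact hTA v
  · refine ContinuousLinearMap.opNorm_le_bound _ (by norm_num) fun v => ?_
    have h2 := h1 (T.symm v)
    rw [← hTA, ContinuousLinearEquiv.apply_symm_apply] at h2
    exact h2
  · refine ContinuousLinearMap.opNorm_le_bound _ (by norm_num) fun v => ?_
    have h2 : ‖A v - v‖ ≤ 1 / 2 * ‖v‖ :=
      (ContinuousLinearMap.le_opNorm (A - ContinuousLinearMap.id ℝ E2) v).trans
        (mul_le_mul_of_nonneg_right h (norm_nonneg _))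
    have h4 : ‖T v‖ ≤ ‖A v - v‖ + ‖v‖ := by
      calc ‖T v‖ = ‖(A v - v) + v‖ := by rw [hTA]; congr 1; abel
        _ ≤ _ := norm_add_le _ _
    have h5 : ‖T v‖ ≤ 2 * ‖v‖ := by linarith [norm_nonneg v]
    exact h5

theorem exists_AqI (P : Pic L V) : ∃ ρ : ℝ, 0 < ρ ∧ ∀ ε₀ ≤ ρ, AqI P ε₀ := by
  obtain ⟨ρ, hρ, H⟩ := exists_fderiv_close P (ε := 1 / 2) (by norm_num)
  refine ⟨ρ, hρ, fun ε₀ hε => ⟨2, fun x ξ hN => ?_⟩⟩
  have h0 : (0 : E2) ∈ closedBall (0 : E2) 2 := mem_closedBall_self (by norm_num)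
  exact exists_equiv_of_close (H x ξ ⟨hN.1, hN.2.trans hε⟩ 0 h0).le

end Vale.Agent.P207.N4.V.H790
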