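import Vale.Agent.P207.N5.H790.AqB
import Vale.Agent.P207.N5.H709.T2h
import Vale.Agent.P207.N5.H469.T2n

/-!
# P207, line N5: the row `P.T2a`

`t2a_of`: `P.T2a ε₀` for all small `ε₀`, from the norm of the flow (`P.RateP`), the rates of the
angle (`H469.AngR`) and the Harnack inequality for `P.gr`.
-/

set_option linter.all false
set_option maxSynthPendingDepth 3

open Set Filter Topology Metric MeasureTheory
open scoped ContDiff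

noncomputable section

namespace Vale.Agent.P207.N4.V.H790

open Vale.Agent.P207.N4.H790

open Vale.Agent.P207.N3

variable [Dim]

variable {Γ X B : Type} [Group Γ] [MetricSpace X] [ProperSpace X] [MulAction Γ X]
  [IsIsometricSMul Γ X] [TopologicalSpace B] [CompactSpace B] [T2Space B] [MulAction Γ B]
  [ContinuousConstSMul Γ B] {L : Leaf Γ X B} [MeasurableSpace B] [BorelSpace B] {V : Type}
  [NormedAddCommGroup V] [NormedSpace ℝ V] [FiniteDimensional ℝ V] {P : Pic L V}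

/-- the Harnack inequality -/
def Har (P : Pic L V) : Prop := ∃ H, 0 < H ∧ ∀ x ξ, 0 < P.Bu.nu x ξ 0 → ∀ q ∈ ball (0 : E2) 1,
  ‖P.gr x ξ q‖ ≤ H * ‖P.gr x ξ 0‖

theorem angB_of (hA : H469.AngR P) : ∃ ρ : ℝ, 0 < ρ ∧ ∀ ε₀ ≤ ρ, AngB P ε₀ := by
  obtain ⟨C, hC1, hC⟩ := hA
  obtain ⟨ε', hε', hN⟩ := H469.near2 P one_pos
  refine ⟨ε', hε', fun ε₀ hε => ⟨C, hC1, fun x ξ s hs hNr hle => ?_⟩⟩
  have hb : 0 < P.Ra.b := P.Ra.a_pos.trans_le P.Ra.a_le_b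
  have hback : ∀ t : ℝ, 0 ≤ t → 0 < P.Bu.nu (L.φ (-t) x) ξ 0 →
      ‖P.gr (L.φ (-t) x) ξ 0‖ ≤ C * Real.exp (P.Ra.b * t) * ‖P.gr x ξ 0‖ := by
    intro t ht hnu
    have h := (hC (L.φ (-t) x) ξ hnu t ht).2.2
    rwa [← L.φ_add, add_neg_cancel, L.φ_zero] at h
  have key : ∀ i : ℕ, (i : ℝ) < s + 1 → 0 < P.Bu.nu (L.φ (-(i : ℝ)) x) ξ 0 := by
    intro i
    induction i with
    | zero =>
      intro _
      rw [Nat.cast_zero, neg_zero, L.φ_zero]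
      exact hNr.1
    | succ i ih =>
      intro hi
      push_cast at hi
      have his : (i : ℝ) < s := by linarith
      have h1 := ih (by linarith)
      have h2 := hback i (Nat.cast_nonneg i) h1
      have h3 : C * Real.exp (P.Ra.b * i) * ‖P.gr x ξ 0‖ ≤ ε₀ := by
        refine le_trans ?_ hle
        have : Real.exp (P.Ra.b * i) ≤ Real.exp (P.Ra.b * s) :=
          Real.exp_le_exp.2 (mul_le_mul_of_nonneg_left his.le hb.le)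
        have hC0 : 0 ≤ C := by linarith
        gcongr
      have h4 := hN (L.φ (-(i : ℝ)) x) ξ ⟨h1, (h2.trans h3).trans hε⟩
      have h5 := h4.1
      rw [← L.φ_add] at h5
      have e : (-1 : ℝ) + -(i : ℝ) = -((i + 1 : ℕ) : ℝ) := by push_cast; ring
      rwa [e] at h5
  have hn1 : (⌈s⌉₊ : ℝ) < s + 1 := Nat.ceil_lt_add_one hs
  have hn2 : s ≤ (⌈s⌉₊ : ℝ) := Nat.le_ceil s
  have h1 := key _ hn1
  have h2 := (hC _ ξ h1 ((⌈s⌉₊ : ℝ) - s) (by linarith)).1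
  rw [← L.φ_add] at h2
  have e : ((⌈s⌉₊ : ℝ) - s) + -(⌈s⌉₊ : ℝ) = -s := by ring
  rw [e] at h2
  have h3 := hback s hs h2
  exact ⟨⟨h2, h3.trans hle⟩, h3⟩

/-- the second derivatives of the generating functions are small near the diagonal -/
theorem near_gr (P : Pic L V) {s : ℝ} (hs : 0 < s) : ∃ ρ : ℝ, 0 < ρ ∧ ∀ x ξ,
    0 ≤ P.Bu.nu x ξ 0 → ‖P.gr x ξ 0‖ ≤ ρ → ∀ q ∈ closedBall (0 : E2) 2,
      ‖fderiv ℝ (P.gr x ξ) q‖ < s := by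
  refine near_open P (O := {p : X × B | ∀ q ∈ closedBall (0 : E2) 2,
    ‖fderiv ℝ (P.gr p.1 p.2) q‖ < s}) ?_ ?_
  · intro x
    have h := P.gr_jc.eventually (z₀ := (x, L.em x)) (isCompact_closedBall (0 : E2) 2)
      (fun q hq => P.closedBall_dTB x (L.em x) hq) 1 hs
    filter_upwards [h] with p hp q hq
    have h1 := (hp q hq).2
    have h2 : iteratedFDeriv ℝ 1 (P.gr x (L.em x)) q = 0 := by
      have h3 : P.gr x (L.em x) =ᶠ[𝓝 q] fun _ => (0 : E2) := by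
        filter_upwards [(isOpen_slice P.Af.isOpen_dT x).mem_nhds (P.Af.closedBall_dT x hq)]
          with w hw using P.gr_em x hw
      rw [(h3.iteratedFDeriv ℝ 1).self_of_nhds, iteratedFDeriv_zero_fun]
      rfl
    have h1' : ‖iteratedFDeriv ℝ 1 (P.gr p.1 p.2) q -
        iteratedFDeriv ℝ 1 (P.gr x (L.em x)) q‖ < s := h1
    rw [h2, sub_zero, norm_iteratedFDeriv_one] at h1'
    exact h1'
  · intro g x ξ h q hq
    have h1 : P.gr x ξ =ᶠ[𝓝 q] P.gr (g • x) (g • ξ) := by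
      filter_upwards [(isOpen_slice P.Af.isOpen_dT x).mem_nhds (P.Af.closedBall_dT x hq)]
        with w hw using (P.gr_smul g hw ξ).symm
    rw [h1.fderiv_eq]
    exact h q hq

theorem gr_diff (P : Pic L V) (x : X) (ξ : B) {q : E2} (hq : q ∈ closedBall (0 : E2) 2) :
    DifferentiableAt ℝ (P.gr x ξ) q :=
  P.gr_jc.differentiableAt (p := ((x, ξ), q)) (P.closedBall_dTB x ξ hq)

theorem hqB_of (hH : Har P) : ∃ ρ : ℝ, 0 < ρ ∧ ∀ ε₀ ≤ ρ, HqB P ε₀ := by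
  obtain ⟨H, hH0, hHar⟩ := hH
  obtain ⟨ρ, hρ, K, hK, hq⟩ := H709.exists_hq P (ε := 1) one_pos
  refine ⟨ρ, hρ, fun ε₀ hε => ⟨K * H, fun x ξ hN q hq1 => ?_⟩⟩
  have hq2 : q ∈ closedBall (0 : E2) (7 / 4) :=
    ball_subset_closedBall (ball_subset_ball (by norm_num) hq1)
  obtain ⟨-, h2, -, -, h5, -⟩ := hq x ξ ⟨hN.1, hN.2.trans hε⟩ q hq2
  refine ⟨h2, h5.trans ?_⟩
  rw [mul_assoc]
  exact mul_le_mul_of_nonneg_left (hHar x ξ hN.1 q hq1) hK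

theorem kqB_of (hH : Har P) : ∃ ρ : ℝ, 0 < ρ ∧ ∀ ε₀ ≤ ρ, KqB P ε₀ := by
  obtain ⟨H, hH0, hHar⟩ := hH
  obtain ⟨ρ₁, hρ₁, K, hK, hq⟩ := H709.exists_hq P (ε := 1) one_pos
  obtain ⟨ρ₂, hρ₂, H₂⟩ := exists_kq P (ε := 1 / 4) (by norm_num)
  obtain ⟨ρ₃, hρ₃, H₃⟩ := near_gr P (s := 1 / (2 * (K + 1))) (by positivity)
  refine ⟨min ρ₁ (min ρ₂ ρ₃), lt_min hρ₁ (lt_min hρ₂ hρ₃), fun ε₀ hε =>
    ⟨2 * K * H, fun x ξ hN w hw => ?_⟩⟩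
  have hN1 : P.Nr ρ₁ x ξ := ⟨hN.1, hN.2.trans (hε.trans (min_le_left _ _))⟩
  have hg2 : ‖P.gr x ξ 0‖ ≤ ρ₂ :=
    hN.2.trans (hε.trans ((min_le_right _ _).trans (min_le_left _ _)))
  have hg3 : ‖P.gr x ξ 0‖ ≤ ρ₃ :=
    hN.2.trans (hε.trans ((min_le_right _ _).trans (min_le_right _ _)))
  have hw1 : ‖w‖ < 1 := by simpa using hw
  have hw2 : w ∈ closedBall (0 : E2) 2 := by rw [mem_closedBall_zero_iff]; linarith
  obtain ⟨h1, h2⟩ := H₂ x ξ hN.1.le hg2 w hw2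
  refine ⟨h1, ?_⟩
  set q := P.Af.ch x (P.Th x ξ w) with hqd
  have hqn : ‖q‖ ≤ 7 / 4 := by
    calc ‖q‖ = ‖(q - w) + w‖ := by congr 1; abel
      _ ≤ ‖q - w‖ + ‖w‖ := norm_add_le _ _
      _ ≤ 7 / 4 := by linarith
  have hq74 : q ∈ closedBall (0 : E2) (7 / 4) := by rw [mem_closedBall_zero_iff]; exact hqn
  have hq2 : q ∈ closedBall (0 : E2) 2 := by rw [mem_closedBall_zero_iff]; linarith
  obtain ⟨-, -, -, -, h5, h6⟩ := hq x ξ hN1 q hq74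
  have h7 : w = P.Hq x ξ q := h6 w hw2 (by rw [hqd, P.Af.pt_ch _ _ h1])
  rw [← h7] at h5
  -- the gradient at `q`
  have h8 : ‖P.gr x ξ q - P.gr x ξ w‖ ≤ 1 / (2 * (K + 1)) * ‖q - w‖ :=
    (convex_closedBall (0 : E2) 2).norm_image_sub_le_of_norm_fderiv_le
      (fun p hp => gr_diff P x ξ hp) (fun p hp => (H₃ x ξ hN.1.le hg3 p hp).le) hw2 hq2
  have h9 : ‖P.gr x ξ q‖ ≤ H * ‖P.gr x ξ 0‖ + 1 / (2 * (K + 1)) * ‖q - w‖ := by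
    calc ‖P.gr x ξ q‖ = ‖P.gr x ξ w + (P.gr x ξ q - P.gr x ξ w)‖ := by congr 1; abel
      _ ≤ ‖P.gr x ξ w‖ + ‖P.gr x ξ q - P.gr x ξ w‖ := norm_add_le _ _
      _ ≤ _ := add_le_add (hHar x ξ hN.1 w hw) h8
  have h10 : K * (1 / (2 * (K + 1)) * ‖q - w‖) ≤ 1 / 2 * ‖q - w‖ := by
    have h11 : K * (1 / (2 * (K + 1))) ≤ 1 / 2 := by
      rw [mul_one_div, div_le_div_iff₀ (by positivity) (by norm_num)]
      linarith
    calc K * (1 / (2 * (K + 1)) * ‖q - w‖) = K * (1 / (2 * (K + 1))) * ‖q - w‖ := by ring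
      _ ≤ _ := mul_le_mul_of_nonneg_right h11 (norm_nonneg _)
  have h12 : ‖w - q‖ = ‖q - w‖ := norm_sub_rev _ _
  have h13 : K * ‖P.gr x ξ q‖ ≤ K * (H * ‖P.gr x ξ 0‖ + 1 / (2 * (K + 1)) * ‖q - w‖) :=
    mul_le_mul_of_nonneg_left h9 hK
  rw [h12] at h5
  linarith

theorem aq_zero_of : ∃ ρ : ℝ, 0 < ρ ∧ ∀ ε₀ ≤ ρ, ∃ C, ∀ x ξ, P.Nr ε₀ x ξ →
    ‖P.Aq x ξ 0‖ ≤ C * ‖P.gr x ξ 0‖ := by
  obtain ⟨ρ₁, hρ₁, K, hK, hq⟩ := H709.exists_hq P (ε := 1) one_pos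
  obtain ⟨ρ₂, hρ₂, hne, H₂⟩ := exists_aqB P
  obtain ⟨C, hC⟩ := H₂ 1
  refine ⟨min ρ₁ ρ₂, lt_min hρ₁ hρ₂, fun ε₀ hε => ⟨|C| * K, fun x ξ hN => ?_⟩⟩
  have hN1 : P.Nr ρ₁ x ξ := ⟨hN.1, hN.2.trans (hε.trans (min_le_left _ _))⟩
  have hg2 : ‖P.gr x ξ 0‖ ≤ ρ₂ := hN.2.trans (hε.trans (min_le_right _ _))
  have h0 : (0 : E2) ∈ closedBall (0 : E2) (7 / 4) := mem_closedBall_self (by norm_num)
  have h02 : (0 : E2) ∈ closedBall (0 : E2) 2 := mem_closedBall_self (by norm_num)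
  obtain ⟨h1, h2, h3, h4, h5, -⟩ := hq x ξ hN1 0 h0
  have hξ := (hne x ξ hN.1.le hg2).1
  have h6 : P.hh x ξ 0 = 0 := by
    show P.Af.ch (L.hol ξ x) (P.Af.pt x 0) = 0
    rw [P.Af.pt_zero, ← L.hol_ep ξ x hξ, ← P.Af.pt_zero, P.Af.ch_pt]
  rw [h6] at h3
  have h7 : ‖P.Aq x ξ 0 - P.Aq x ξ (P.Hq x ξ 0)‖ ≤ |C| * ‖0 - P.Hq x ξ 0‖ :=
    (convex_closedBall (0 : E2) 2).norm_image_sub_le_of_norm_fderiv_le
      (fun p hp => ((hC x ξ hN.1.le hg2 p hp).1).differentiableAt (by simp))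
      (fun p hp => by
        rw [← norm_iteratedFDeriv_one]
        exact ((hC x ξ hN.1.le hg2 p hp).2).trans (le_abs_self _))
      (ball_subset_closedBall h1) h02
  rw [← h3, sub_zero, norm_sub_rev] at h7
  refine h7.trans ?_
  rw [mul_assoc]
  exact mul_le_mul_of_nonneg_left h5 (abs_nonneg _)

/-- **the row T2a** -/
theorem t2a_of (hR : P.RateP) (hA : H469.AngR P) (hH : Har P) :
    ∃ ε₁ : ℝ, 0 < ε₁ ∧ ∀ ε₀, 0 < ε₀ → ε₀ ≤ ε₁ → P.T2a ε₀ := by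
  obtain ⟨ρ₁, hρ₁, H₁⟩ := exists_AqB P
  obtain ⟨ρ₂, hρ₂, H₂⟩ := kqB_of hH
  obtain ⟨ρ₃, hρ₃, H₃⟩ := hqB_of hH
  obtain ⟨ρ₄, hρ₄, H₄⟩ := angB_of hA
  obtain ⟨ρ₅, hρ₅, H₅⟩ := aq_zero_of (P := P)
  have hpin : P.Ra.b < 2 * P.Ra.a := by
    have := P.Ra.pinch
    have := P.Ra.a_pos
    linarith
  refine ⟨min (min 1 ρ₁) (min (min ρ₂ ρ₃) (min ρ₄ ρ₅)), ?_, fun ε₀ h0 hε => ?_⟩
  · exact lt_min (lt_min one_pos hρ₁) (lt_min (lt_min hρ₂ hρ₃) (lt_min hρ₄ hρ₅))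
  have e1 : ε₀ ≤ 1 := hε.trans ((min_le_left _ _).trans (min_le_left _ _))
  have e2 : ε₀ ≤ ρ₁ := hε.trans ((min_le_left _ _).trans (min_le_right _ _))
  have e3 : ε₀ ≤ min (min ρ₂ ρ₃) (min ρ₄ ρ₅) := hε.trans (min_le_right _ _)
  have e4 : ε₀ ≤ ρ₂ := e3.trans ((min_le_left _ _).trans (min_le_left _ _))
  have e5 : ε₀ ≤ ρ₃ := e3.trans ((min_le_left _ _).trans (min_le_right _ _))
  have e6 : ε₀ ≤ ρ₄ := e3.trans ((min_le_right _ _).trans (min_le_left _ _))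
  have e7 : ε₀ ≤ ρ₅ := e3.trans ((min_le_right _ _).trans (min_le_right _ _))
  refine ⟨fun κ hκ k hk => ?_, fun ε hε => ?_, ?_, H₅ ε₀ e7⟩
  · obtain ⟨C, -, hC⟩ := t2a_two h0 e1 hpin hR (H₁ ε₀ e2) (H₂ ε₀ e4) (H₃ ε₀ e5) (H₄ ε₀ e6) κ hκ
      k hk
    exact ⟨C, hC⟩
  · obtain ⟨ρ, hρ, H⟩ := exists_fderiv_close P hε
    refine ⟨ρ, hρ, fun x ξ hN q hq => (H x ξ hN q ?_).le⟩
    rw [mem_ball_zero_iff] at hq
    rw [mem_closedBall_zero_iff]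
    linarith
  · obtain ⟨C, hC⟩ := H₁ ε₀ e2 0
    exact fun x ξ hN => (hC x ξ hN).1

end Vale.Agent.P207.N4.V.H790
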